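import Vale.Agent.H2.P064.SM

/-! The pair inequality at a maximiser and the discrete ODE lemma. -/

namespace Vale.Agent.H7.P064

open Finset Classical Vale.Agent.H2.P064

set_option linter.unusedSectionVars false

section Act
variable {X G : Type} [Fintype X] [Group G] [Fintype G] (a : G →* Equiv.Perm X)

/-- `P(A,F)^2` is the average of `P(A, F ∪ gF)`. -/
theorem P_sq (A F : Finset X) :
    P a A F ^ 2 = (∑ g : G, P a A (F ∪ im a g F)) / Fintype.card G := by
  have h1 : ∀ g : G, P a A (F ∪ im a g F) =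
      (∑ h : G, (if im a h F ⊆ A then (1 : ℝ) else 0) * (if im a (h * g) F ⊆ A then 1 else 0)) /
        Fintype.card G := by
    intro g
    rw [P_eq]
    congr 1
    apply Finset.sum_congr rfl
    intro h _
    have h0 : im a h (F ∪ im a g F) ⊆ A ↔ (im a h F ⊆ A ∧ im a (h * g) F ⊆ A) := by
      rw [im_union, ← im_mul, Finset.union_subset_iff]
    by_cases h1 : im a h F ⊆ A <;> by_cases h2 : im a (h * g) F ⊆ A <;> simp [h0, h1, h2]
  simp_rw [h1]
  rw [← Finset.sum_div, Finset.sum_comm]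
  have h2 : ∀ h : G, (∑ g : G, (if im a h F ⊆ A then (1 : ℝ) else 0) *
      (if im a (h * g) F ⊆ A then 1 else 0)) =
      (if im a h F ⊆ A then (1 : ℝ) else 0) * (∑ g : G, if im a g F ⊆ A then (1 : ℝ) else 0) := by
    intro h
    rw [← Finset.mul_sum]
    congr 1
    exact Fintype.sum_equiv (Equiv.mulLeft h) _ _ (fun g => rfl)
  simp_rw [h2]
  rw [← Finset.sum_mul, P_eq]
  ring

theorem card_union_im (F : Finset X) (g : G) :
    (F ∪ im a g F).card + (F ∩ im a g F).card = 2 * F.card := by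
  rw [Finset.card_union_add_card_inter, card_im]; ring

/-- Pair inequality: `rho ≤ E_g (Lq)^(-|F ∩ gF|)` at a maximiser. -/
theorem pair_ineq (H F : Finset X) (p ρ : ℝ) (hp : 0 < p) (hρ : 0 < ρ)
    (hmax : ∀ U : Finset X, P a H U ≤ ρ * p ^ U.card)
    (heq : P a H F = ρ * p ^ F.card) :
    ρ ≤ (∑ g : G, (1 / p) ^ (F ∩ im a g F).card) / Fintype.card G := by
  have hG : (0 : ℝ) < Fintype.card G := cardG_pos
  have h1 := P_sq a H F
  rw [heq] at h1
  have h2 : (∑ g : G, P a H (F ∪ im a g F)) ≤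
      ∑ g : G, ρ * p ^ (2 * F.card) * (1 / p) ^ (F ∩ im a g F).card := by
    apply Finset.sum_le_sum
    intro g _
    refine (hmax _).trans (le_of_eq ?_)
    have := card_union_im a F g
    rw [← this, pow_add, one_div, inv_pow]
    field_simp
  rw [← Finset.mul_sum] at h2
  have h3 : (ρ * p ^ F.card) ^ 2 ≤ ρ * p ^ (2 * F.card) *
      (∑ g : G, (1 / p) ^ (F ∩ im a g F).card) / Fintype.card G := by
    rw [h1]
    exact div_le_div_of_nonneg_right h2 hG.le
  have h4 : (ρ * p ^ F.card) ^ 2 = ρ * p ^ (2 * F.card) * ρ := by ring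
  rw [h4, mul_div_assoc] at h3
  exact le_of_mul_le_mul_left h3 (by positivity)

end Act

/-- Discrete ODE lemma: `t F` is `log (N(H,F)/E_F)`, `e F` the number of edges, `o` the empty
graph.  If every minimal maximiser `F` of `t - x e`, `x ≥ x0`, with `2^i ≤ e F < 2^(i+1)` has
`t F - x e F ≤ 2^(i+1) G i`, then `t F ≤ (x0 + 2 ∑ G i) e F` for all `F`. -/
theorem ode_lemma {ι : Type*} (s : Finset ι) (o : ι) (ho : o ∈ s) (e : ι → ℕ) (t : ι → ℝ)
    (heo : e o = 0) (hto : 0 ≤ t o) (x0 : ℝ) (G : ℕ → ℝ) (hG : ∀ i, 0 ≤ G i) (I : ℕ)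
    (hI : ∀ F ∈ s, e F < 2 ^ I)
    (h0 : ∀ F ∈ s, e F = 0 → t F ≤ 0)
    (hmax : ∀ x, x0 ≤ x → ∀ F ∈ s, (∀ F' ∈ s, t F' - x * e F' ≤ t F - x * e F) →
      ∀ i, 2 ^ i ≤ e F → e F < 2 ^ (i + 1) → t F - x * e F ≤ 2 ^ (i + 1) * G i) :
    ∀ F ∈ s, t F ≤ (x0 + 2 * ∑ i ∈ range I, G i) * e F := by
  -- choose, at each x, a maximiser with minimal number of edges
  have key : ∀ x : ℝ, ∃ F ∈ s, (∀ F' ∈ s, t F' - x * e F' ≤ t F - x * e F) ∧
      ∀ F' ∈ s, (∀ F'' ∈ s, t F'' - x * e F'' ≤ t F' - x * e F') → e F ≤ e F' := by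
    intro x
    obtain ⟨M, hM, hM'⟩ := Finset.exists_max_image s (fun F => t F - x * e F) ⟨o, ho⟩
    let s' := s.filter (fun F => ∀ F' ∈ s, t F' - x * e F' ≤ t F - x * e F)
    have hs' : s'.Nonempty := ⟨M, by simp only [s', mem_filter]; exact ⟨hM, hM'⟩⟩
    obtain ⟨F, hF, hF'⟩ := Finset.exists_min_image s' e hs'
    simp only [s', mem_filter] at hF hF'
    exact ⟨F, hF.1, hF.2, fun F' h1 h2 => hF' F' ⟨h1, h2⟩⟩
  choose M hM1 hM2 hM3 using key
  -- claim: at x0 + 2 ∑_{i ≥ j} G i the minimal maximiser has fewer than 2^j edges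
  have claim : ∀ j, j ≤ I → e (M (x0 + 2 * ∑ i ∈ range I, G i - 2 * ∑ i ∈ range j, G i)) < 2 ^ j := by
    intro j hj
    induction hj using Nat.decreasingInduction with
    | self => exact hI _ (hM1 _)
    | of_succ j hj ih =>
      by_contra hcon
      rw [not_lt] at hcon
      set x' := x0 + 2 * ∑ i ∈ range I, G i - 2 * ∑ i ∈ range j, G i with hx'
      set x := x0 + 2 * ∑ i ∈ range I, G i - 2 * ∑ i ∈ range (j + 1), G i with hx
      have hxx : x' = x + 2 * G j := by
        rw [hx', hx, Finset.sum_range_succ]; ring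
      have hx0 : x0 ≤ x := by
        have : ∑ i ∈ range (j + 1), G i ≤ ∑ i ∈ range I, G i :=
          Finset.sum_le_sum_of_subset_of_nonneg (by
            intro i hi; rw [mem_range] at hi ⊢; omega) (fun i _ _ => hG i)
        rw [hx]; linarith
      -- monotonicity of the sizes
      have hmono : e (M x') ≤ e (M x) := by
        by_cases hGj : G j = 0
        · rw [hxx, hGj]; simp
        have hGp : 0 < G j := lt_of_le_of_ne (hG j) (Ne.symm hGj)
        have h1 := hM2 x _ (hM1 x')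
        have h2 := hM2 x' _ (hM1 x)
        have h3 : (2 * G j) * ((e (M x') : ℝ) - e (M x)) ≤ 0 := by
          have h5 : x' * (e (M x) : ℝ) = x * e (M x) + 2 * G j * e (M x) := by rw [hxx]; ring
          have h6 : x' * (e (M x') : ℝ) = x * e (M x') + 2 * G j * e (M x') := by rw [hxx]; ring
          linarith
        have h4 : (e (M x') : ℝ) - e (M x) ≤ 0 := by
          by_contra hc
          rw [not_le] at hc
          have : 0 < (2 * G j) * ((e (M x') : ℝ) - e (M x)) := by positivity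
          linarith
        exact_mod_cast (sub_nonpos.mp h4)
      have hb := hmax x hx0 (M x) (hM1 x) (hM2 x) j (hcon.trans hmono) ih
      -- at x' the value is ≤ 0
      have hv : t (M x') - x' * e (M x') ≤ 0 := by
        have h1 := hM2 x _ (hM1 x')
        have h2 : (2 : ℝ) ^ j ≤ e (M x') := by exact_mod_cast hcon
        have h3 : 0 ≤ G j := hG j
        have h4 : (2 : ℝ) ^ (j + 1) * G j ≤ 2 * G j * e (M x') := by
          rw [pow_succ]; nlinarith
        have h6 : x' * (e (M x') : ℝ) = x * e (M x') + 2 * G j * e (M x') := by rw [hxx]; ring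
        linarith
      have ho' : ∀ F' ∈ s, t F' - x' * e F' ≤ t o - x' * e o := by
        intro F' hF'
        have := hM2 x' F' hF'
        rw [heo]; simp only [Nat.cast_zero, mul_zero, sub_zero]
        linarith
      have h5 := hM3 x' o ho ho'
      rw [heo] at h5
      have h6 : 1 ≤ 2 ^ j := Nat.one_le_two_pow
      omega
  have h0' := claim 0 (Nat.zero_le _)
  simp only [range_zero, sum_empty, mul_zero, sub_zero, pow_zero, Nat.lt_one_iff] at h0'
  intro F hF
  have h1 := hM2 (x0 + 2 * ∑ i ∈ range I, G i) F hF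
  have h2 := h0 _ (hM1 _) h0'
  rw [h0'] at h1
  simp only [Nat.cast_zero, mul_zero, sub_zero] at h1
  linarith

end Vale.Agent.H7.P064
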